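import Vale.Agent.Lib.P208.Main

/-!
# P208: the Lang-Plaut problem for convex sets

A nonempty convex subset `X` of a real inner product space (for instance of `ℓ_2`) that is doubling
with constant at most `N` embeds isometrically into `ℝ^k` for some `k` with `2 ^ k ≤ N`.
-/

namespace Vale.Agent.Results.P208.ConvexSets

open _root_.P208

theorem result {E : Type*} [NormedAddCommGroup E] [InnerProductSpace ℝ E] (X : Set E) (N : ℕ) :
    -- (1) the theorem
    (X.Nonempty → Convex ℝ X → DoublingWith X N →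
      ∃ k : ℕ, 2 ^ k ≤ N ∧ ∃ f : E → EuclideanSpace ℝ (Fin k),
        ∀ x ∈ X, ∀ y ∈ X, dist (f x) (f y) = dist x y) ∧
    -- (2) `DoublingWith` follows from the doubling condition stated with closed balls
    ((∀ x ∈ X, ∀ r : ℝ, 0 < r → ∃ t : Finset E, (↑t ⊆ X) ∧ t.card ≤ N ∧
        X ∩ Metric.closedBall x r ⊆ ⋃ y ∈ t, Metric.closedBall y (r / 2)) → DoublingWith X N) ∧
    -- (3) and from the doubling condition stated with open balls
    ((∀ x ∈ X, ∀ r : ℝ, 0 < r → ∃ t : Finset E, (↑t ⊆ X) ∧ t.card ≤ N ∧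
        X ∩ Metric.ball x r ⊆ ⋃ y ∈ t, Metric.ball y (r / 2)) → DoublingWith X N) := by
  refine ⟨fun hne hc hd => convex_doubling X N hne hc hd, ?_, ?_⟩
  · intro h x hx r hr
    obtain ⟨t, ht, hcard, hsub⟩ := h x hx r hr
    exact ⟨t, ht, hcard,
      (Set.inter_subset_inter_right X Metric.ball_subset_closedBall).trans hsub⟩
  · intro h x hx r hr
    obtain ⟨t, ht, hcard, hsub⟩ := h x hx r hr
    refine ⟨t, ht, hcard, hsub.trans ?_⟩
    exact Set.iUnion₂_mono fun y _ => Metric.ball_subset_closedBall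

end Vale.Agent.Results.P208.ConvexSets
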